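import Mathlib

namespace Vale.Agent.P037

/-- groups of rows / columns -/
abbrev Grp (h : ℕ) := Fin 32 ⊕ (Fin 3 × Fin (2 * h + 2) × Fin 3) ⊕ Fin (2 * h + 2)

abbrev X (h : ℕ) := Grp h × Fin (2 ^ h)

def sec {h : ℕ} : Grp h → ℕ
  | .inl a => a
  | .inr (.inl w) => 32 + w.1
  | .inr (.inr _) => 34

def enc (a : ℕ) : ℕ := if a < 6 then 2 ^ a else a + 27

def T (a b : ℕ) : Bool :=
  if b < 6 then (enc a).testBit b else if a < 6 then (enc b).testBit a else (a == b || a == 31)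

def core (a b : ℕ) : Bool :=
  if a = 0 then b != 3 else if a = 1 then b != 2 else if a = 2 then b != 0 else (b == 0 || b == 3)

def H (i j : Fin 36) : Bool :=
  if (i : ℕ) < 32 ∨ (j : ℕ) < 32 then T (min i 34) (min j 34) else core (i - 32) (j - 32)

def dd (h j : ℕ) : ℕ := if j ≤ h then h - j else j - h - 1

def val (h j x y : ℕ) : Prop :=
  if j ≤ h then y / 2 ^ dd h j < x / 2 ^ dd h j else y / 2 ^ dd h j ≤ x / 2 ^ dd h j

def cb (h j y : ℕ) : ℕ := y / 2 ^ dd h j % 2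

def be (h j x : ℕ) : ℕ := if j ≤ h then cb h j x else cb h (j - 1) x

def colIn1 (h j e j' y : ℕ) : Prop :=
  if e = 2 then j' = j else (j' + 1 = j ∧ (h ≤ j' → cb h j' y = e))

def colIn2 (h j e j' y : ℕ) : Prop := e ≠ 2 ∧ j' = j ∧ (j' ≤ h → cb h j' y = e)

def rowIn1 (h j e j' x : ℕ) : Prop := j' = j ∧ (e = 2 ∨ be h j x = e)

def rowIn2 (j e j' : ℕ) : Prop := e = 2 ∧ j' = j + 1

def ww (a j e a' j' e' : ℕ) : Prop :=
  j = j' ∧ e = e' ∧
    ((a < 2 ∧ a' < 2) ∨ (a = 1 ∧ a' = 2 ∧ e = 2) ∨ (a = 2 ∧ a' = 1 ∧ e ≠ 2))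

def wm (h a j e j' y : ℕ) : Prop :=
  (a ≠ 1 ∧ colIn1 h j e j' y) ∨ (a ≠ 0 ∧ colIn2 h j e j' y)

def mw (h a j e j' x : ℕ) : Prop :=
  (a ≠ 1 ∧ rowIn1 h j e j' x) ∨ (a ≠ 0 ∧ rowIn2 j e j')

def ent {h : ℕ} : X h → X h → Prop
  | (.inl a, _), (g', _) => T a (sec g') = true
  | (.inr g, _), (.inl b, _) => T (sec (h := h) (.inr g)) b = true
  | (.inr (.inl w), _), (.inr (.inl w'), _) => ww w.1 w.2.1 w.2.2 w'.1 w'.2.1 w'.2.2
  | (.inr (.inl w), _), (.inr (.inr j'), y) => wm h w.1 w.2.1 w.2.2 j' y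
  | (.inr (.inr j), x), (.inr (.inl w'), _) => mw h w'.1 w'.2.1 w'.2.2 j x
  | (.inr (.inr j), x), (.inr (.inr j'), y) =>
      ((j' : ℕ) + 1 = j ∨ (j' : ℕ) = j) ∧ val h j' x y

abbrev Key := ℕ ×ₗ ℕ ×ₗ ℕ ×ₗ ℕ ×ₗ ℕ

def mk (a b c d e : ℕ) : Key := toLex (a, toLex (b, toLex (c, toLex (d, e))))

lemma mk_lt {a b c d e a' b' c' d' e' : ℕ} : mk a b c d e < mk a' b' c' d' e' ↔
    a < a' ∨ (a = a' ∧ (b < b' ∨ (b = b' ∧ (c < c' ∨ (c = c' ∧ (d < d' ∨ (d = d' ∧ e < e'))))))) := by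
  simp only [mk, Prod.Lex.toLex_lt_toLex]

lemma mk_inj {a b c d e a' b' c' d' e' : ℕ} : mk a b c d e = mk a' b' c' d' e' ↔
    a = a' ∧ b = b' ∧ c = c' ∧ d = d' ∧ e = e' := by
  simp [mk]

def keyR {h : ℕ} : X h → Key
  | (.inl a, i) => mk a 0 0 0 i
  | (.inr (.inl w), i) => mk (32 + w.1) 0 w.2.1 w.2.2 i
  | (.inr (.inr j), i) => mk 34 1 i (2 * h + 2 - j) i

def pos (h j y : ℕ) : ℕ := if j = 0 then 0 else if j = 2 * h + 1 then 2 ^ h else y

def keyC {h : ℕ} : X h → Key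
  | (.inl a, i) => mk a 0 0 0 i
  | (.inr (.inl w), i) => mk (32 + w.1) 1 w.2.1 w.2.2 i
  | (.inr (.inr j), i) => mk 34 0 (pos h j i) j i

lemma keyR_inj {h : ℕ} : Function.Injective (keyR (h := h)) := by
  rintro ⟨a | ⟨a, j, e⟩ | j, i⟩ ⟨a' | ⟨a', j', e'⟩ | j', i'⟩ hh <;>
    simp only [keyR, mk_inj] at hh <;>
    simp only [Prod.mk.injEq, Sum.inl.injEq, Sum.inr.injEq, Fin.ext_iff, reduceCtorEq, false_and] <;>
    omega

lemma keyC_inj {h : ℕ} : Function.Injective (keyC (h := h)) := by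
  rintro ⟨a | ⟨a, j, e⟩ | j, i⟩ ⟨a' | ⟨a', j', e'⟩ | j', i'⟩ hh <;>
    simp only [keyC, mk_inj] at hh <;>
    simp only [Prod.mk.injEq, Sum.inl.injEq, Sum.inr.injEq, Fin.ext_iff, reduceCtorEq, false_and] <;>
    omega

lemma secR_mono {h : ℕ} {r r' : X h} (hh : keyR r < keyR r') : sec r.1 ≤ sec r'.1 := by
  rcases r with ⟨a | ⟨a, j, e⟩ | j, i⟩ <;> rcases r' with ⟨a' | ⟨a', j', e'⟩ | j', i'⟩ <;>
    simp only [keyR, mk_lt] at hh <;> simp only [sec] <;> omega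

lemma secC_mono {h : ℕ} {r r' : X h} (hh : keyC r < keyC r') : sec r.1 ≤ sec r'.1 := by
  rcases r with ⟨a | ⟨a, j, e⟩ | j, i⟩ <;> rcases r' with ⟨a' | ⟨a', j', e'⟩ | j', i'⟩ <;>
    simp only [keyC, mk_lt] at hh <;> simp only [sec] <;> omega

lemma keyR_of_sec {h : ℕ} {r r' : X h} (hh : sec r.1 < sec r'.1) : keyR r < keyR r' := by
  rcases r with ⟨a | ⟨a, j, e⟩ | j, i⟩ <;> rcases r' with ⟨a' | ⟨a', j', e'⟩ | j', i'⟩ <;>
    simp only [sec] at hh <;> simp only [keyR, mk_lt] <;> omega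

lemma keyC_of_sec {h : ℕ} {r r' : X h} (hh : sec r.1 < sec r'.1) : keyC r < keyC r' := by
  rcases r with ⟨a | ⟨a, j, e⟩ | j, i⟩ <;> rcases r' with ⟨a' | ⟨a', j', e'⟩ | j', i'⟩ <;>
    simp only [sec] at hh <;> simp only [keyC, mk_lt] <;> omega

lemma sec_le {h : ℕ} (g : Grp h) : sec g ≤ 34 := by
  rcases g with a | ⟨a, j, e⟩ | j <;> simp only [sec] <;> omega

lemma ent_anc {h : ℕ} {r c : X h} (hh : sec r.1 < 32 ∨ sec c.1 < 32) :
    ent r c ↔ T (sec r.1) (sec c.1) = true := by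
  rcases r with ⟨a | ⟨a, j, e⟩ | j, i⟩ <;> rcases c with ⟨a' | ⟨a', j', e'⟩ | j', i'⟩ <;>
    simp only [sec] at hh <;> first | rfl | omega

def slot {h : ℕ} : X h → ℕ
  | (.inl _, _) => 0
  | (.inr (.inl w), _) => w.1 * 6 + w.2.2 * 2 + w.2.1 % 2
  | (.inr (.inr j), y) => 18 + cb h j y * 2 + j % 2

lemma cb_lt (h j y : ℕ) : cb h j y < 2 := Nat.mod_lt _ (by norm_num)

lemma slot_lt {h : ℕ} (c : X h) : slot c < 22 := by
  rcases c with ⟨a | ⟨a, j, e⟩ | j, i⟩ <;> simp only [slot]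
  · omega
  · omega
  · have := cb_lt h j i; omega

lemma val_mono_col {h j x y y' : ℕ} (hy : y ≤ y') (hv : val h j x y') : val h j x y := by
  have := Nat.div_le_div_right (c := 2 ^ dd h j) hy
  unfold val at *
  split_ifs at * <;> omega

lemma val_mono_row {h j x x' y : ℕ} (hx : x' ≤ x) (hv : val h j x' y) : val h j x y := by
  have := Nat.div_le_div_right (c := 2 ^ dd h j) hx
  unfold val at *
  split_ifs at * <;> omega

lemma pos_le {h j y y' : ℕ} (hh : pos h j y < pos h j y' ∨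
    (pos h j y = pos h j y' ∧ (j < j ∨ (j = j ∧ y < y')))) : y ≤ y' := by
  unfold pos at hh
  split_ifs at hh <;> omega

lemma lemP {h : ℕ} {c c' r r2 : X h} (hc : 32 ≤ sec c.1) (hc' : 32 ≤ sec c'.1)
    (hr : 32 ≤ sec r.1) (hr2 : 32 ≤ sec r2.1) (hk : keyC c < keyC c') (hs : slot c = slot c')
    (h1 : ent r c) (h2 : ent r c') (h3 : ent r2 c') : ent r2 c := by
  rcases c with ⟨a | ⟨a, j, e⟩ | j, y⟩
  · simp only [sec] at hc; omega
  · rcases c' with ⟨a' | ⟨a', j', e'⟩ | j', y'⟩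
    · simp only [sec] at hc'; omega
    · simp only [slot] at hs
      have ha : a = a' := by ext; omega
      have he : e = e' := by ext; omega
      subst ha he
      have hj : j = j' := by
        rcases r with ⟨b | ⟨b, k, f⟩ | k, x⟩
        · simp only [sec] at hr; omega
        · simp only [ent, ww] at h1 h2; ext; omega
        · simp only [ent, mw, rowIn1, rowIn2] at h1 h2; ext; omega
      subst hj
      rcases r2 with ⟨b | ⟨b, k, f⟩ | k, x⟩
      · simp only [sec] at hr2; omega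
      · exact h3
      · exact h3
    · simp only [slot] at hs; omega
  · rcases c' with ⟨a' | ⟨a', j', e'⟩ | j', y'⟩
    · simp only [sec] at hc'; omega
    · simp only [slot] at hs; omega
    · simp only [slot] at hs
      have hb := cb_lt h j y
      have hb' := cb_lt h j' y'
      have hj : j = j' := by
        rcases r with ⟨b | ⟨b, k, f⟩ | k, x⟩
        · simp only [sec] at hr; omega
        · simp only [ent, wm, colIn1, colIn2] at h1 h2; ext
          split_ifs at h1 h2 <;> omega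
        · simp only [ent] at h1 h2; ext; omega
      subst hj
      have hcb : cb h j y = cb h j y' := by omega
      simp only [keyC, mk_lt, lt_self_iff_false, true_and, false_or] at hk
      have hy : (y : ℕ) ≤ y' := pos_le (h := h) (j := j) (by simpa using hk)
      rcases r2 with ⟨b | ⟨b, k, f⟩ | k, x⟩
      · simp only [sec] at hr2; omega
      · simp only [ent, wm, colIn1, colIn2] at h3 ⊢
        rw [hcb]; exact h3
      · exact ⟨h3.1, val_mono_col hy h3.2⟩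

end Vale.Agent.P037
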