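import Vale.Agent.P037.Rare

namespace Vale.Agent.P037

def isXR {h : ℕ} : Grp h → Bool
  | .inr (.inr _) => true
  | _ => false

def isXC {h : ℕ} : Grp h → Bool
  | .inr (.inr j) => decide (0 < (j : ℕ) ∧ (j : ℕ) < 2 * h + 1)
  | _ => false

def rs {h : ℕ} (t : Fin (2 ^ h) × Fin (2 ^ h) × Fin (2 ^ h)) (g : Grp h) : X h :=
  (g, if isXR g then t.1 else t.2.1)

def cs {h : ℕ} (t : Fin (2 ^ h) × Fin (2 ^ h) × Fin (2 ^ h)) (g : Grp h) : X h :=
  (g, if isXC g then t.1 else t.2.2)

open Classical in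
lemma avg {h : ℕ} (B : X h → X h → Prop)
    (hD : (Finset.univ.filter fun e : X h × X h => ¬ (ent e.1 e.2 ↔ B e.1 e.2)).card <
      2 ^ h * 2 ^ h) :
    ∃ t, ∀ g g', ¬ (isXR g = true ∧ isXC g' = true) →
      (B (rs t g) (cs t g') ↔ ent (rs t g) (cs t g')) := by
  by_contra hcon
  push Not at hcon
  choose g g' h1 h2 using hcon
  set D := Finset.univ.filter fun e : X h × X h => ¬ (ent e.1 e.2 ↔ B e.1 e.2) with hDdef
  have hmap : ∀ t ∈ (Finset.univ : Finset (Fin (2 ^ h) × Fin (2 ^ h) × Fin (2 ^ h))),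
      (rs t (g t), cs t (g' t)) ∈ D := by
    intro t _
    simp only [hDdef, Finset.mem_filter, Finset.mem_univ, true_and]
    have := h2 t
    tauto
  have hfib : ∀ e ∈ D, (Finset.univ.filter fun t => (rs t (g t), cs t (g' t)) = e).card ≤ 2 ^ h := by
    rintro ⟨⟨a, i⟩, ⟨a', i'⟩⟩ _
    have : (Finset.univ.filter fun t => (rs t (g t), cs t (g' t)) = ((a, i), (a', i'))).card ≤
        (Finset.univ : Finset (Fin (2 ^ h))).card := by
      apply Finset.card_le_card_of_injOn
        (fun t => if isXR a then t.2.1 * 0 + (if isXC a' then t.1 else t.2.1) else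
          if isXC a' then t.2.2 else t.1) (fun _ _ => Finset.mem_univ _)
      rintro ⟨x, s, s'⟩ ht ⟨y, u, u'⟩ ht' he
      simp only [Finset.coe_filter, Finset.mem_univ, true_and, Set.mem_ofPred_eq, rs, cs,
        Prod.mk.injEq] at ht ht'
      have k1 := h1 (x, s, s')
      obtain ⟨⟨e1, e2⟩, e3, e4⟩ := ht
      obtain ⟨⟨e5, e6⟩, e7, e8⟩ := ht'
      rw [e1] at e2 k1
      rw [e3] at e4 k1
      rw [e5] at e6
      rw [e7] at e8
      by_cases c1 : isXR a = true <;> by_cases c2 : isXC a' = true <;>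
        simp_all
    simpa using this
  have := Finset.card_le_mul_card_image_of_maps_to hmap (2 ^ h) hfib
  simp only [Finset.card_univ, Fintype.card_prod, Fintype.card_fin] at this
  have hp : 0 < 2 ^ h := by positivity
  have := Nat.le_of_mul_le_mul_left this hp
  omega

def pick {h : ℕ} (v : Fin 4 → Grp h) (i : Fin 36) : Grp h :=
  if hi : (i : ℕ) < 32 then .inl ⟨i, hi⟩ else v ⟨i - 32, by omega⟩

lemma sec_pick {h : ℕ} {v : Fin 4 → Grp h} (hv : ∀ a, sec (v a) = min (32 + (a : ℕ)) 34)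
    (i : Fin 36) : sec (pick v i) = min (i : ℕ) 34 := by
  unfold pick
  split_ifs with hi
  · simp only [sec]; omega
  · rw [hv]; simp only; omega

def HasCopy {h : ℕ} (B : X h → X h → Prop) : Prop :=
  ∃ f g : Fin 36 → X h, (∀ i j, i < j → keyR (f i) < keyR (f j)) ∧
    (∀ i j, i < j → keyC (g i) < keyC (g j)) ∧ ∀ i j, B (f i) (g j) ↔ H i j = true

lemma copy {h : ℕ} {B : X h → X h → Prop} {t}
    (ht : ∀ g g', ¬ (isXR g = true ∧ isXC g' = true) →
      (B (rs t g) (cs t g') ↔ ent (rs t g) (cs t g')))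
    (v w : Fin 4 → Grp h) (hv : ∀ a, sec (v a) = min (32 + (a : ℕ)) 34)
    (hw : ∀ a, sec (w a) = min (32 + (a : ℕ)) 34)
    (kv : keyR (rs t (v 2)) < keyR (rs t (v 3))) (kw : keyC (cs t (w 2)) < keyC (cs t (w 3)))
    (hc : ∀ a b, B (rs t (v a)) (cs t (w b)) ↔ core a b = true) : HasCopy B := by
  refine ⟨fun i => rs t (pick v i), fun i => cs t (pick w i), ?_, ?_, ?_⟩
  · intro i j hij
    have hij' : (i : ℕ) < j := hij
    by_cases hi : (i : ℕ) < 34
    · apply keyR_of_sec
      simp only [rs, sec_pick hv]; omega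
    · have h1 : i = 34 := by ext; simp; omega
      have h2 : j = 35 := by ext; simp; omega
      subst h1 h2
      exact kv
  · intro i j hij
    have hij' : (i : ℕ) < j := hij
    by_cases hi : (i : ℕ) < 34
    · apply keyC_of_sec
      simp only [cs, sec_pick hw]; omega
    · have h1 : i = 34 := by ext; simp; omega
      have h2 : j = 35 := by ext; simp; omega
      subst h1 h2
      exact kw
  · intro i j
    by_cases hij : (i : ℕ) < 32 ∨ (j : ℕ) < 32
    · simp only
      rw [ht, ent_anc]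
      · simp only [rs, cs, sec_pick hv, sec_pick hw, H, if_pos hij]
      · simp only [rs, cs, sec_pick hv, sec_pick hw]; omega
      · rcases hij with hi | hi
        · simp [pick, hi, isXR]
        · simp [pick, hi, isXC]
    · simp only [H, if_neg hij]
      push Not at hij
      simp only [pick, dif_neg (not_lt.2 hij.1), dif_neg (not_lt.2 hij.2)]
      exact hc _ _

def M {h : ℕ} (j : ℕ) (hj : j < 2 * h + 2) : Grp h := .inr (.inr ⟨j, hj⟩)

def W {h : ℕ} (a : Fin 3) (j : ℕ) (hj : j < 2 * h + 2) (e : Fin 3) : Grp h :=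
  .inr (.inl (a, ⟨j, hj⟩, e))

section
variable {h : ℕ} {t : Fin (2 ^ h) × Fin (2 ^ h) × Fin (2 ^ h)}

lemma cs_mid {j : ℕ} {hj : j < 2 * h + 2} (h0 : 0 < j) (h1 : j < 2 * h + 1) :
    (cs t (M j hj)).2 = t.1 := by
  have : isXC (M j hj) = true := by simp [isXC, M, h0, h1]
  simp [cs, this]

lemma cs_end {j : ℕ} {hj : j < 2 * h + 2} (h0 : ¬ (0 < j ∧ j < 2 * h + 1)) :
    (cs t (M j hj)).2 = t.2.2 := by
  have : isXC (M j hj) = false := by simp only [isXC, M]; exact decide_eq_false h0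
  simp [cs, this]

lemma ent_ww {a j hj e a' j' hj' e'} :
    ent (rs t (W a j hj e)) (cs t (W a' j' hj' e')) ↔ ww a j e a' j' e' := Iff.rfl

lemma ent_wm {a j hj e j' hj'} :
    ent (rs t (W a j hj e)) (cs t (M j' hj')) ↔ wm h a j e j' (cs t (M j' hj')).2 := Iff.rfl

lemma ent_mw {a j hj e j' hj'} :
    ent (rs t (M j' hj')) (cs t (W a j hj e)) ↔ mw h a j e j' t.1 := Iff.rfl

lemma ent_mm {j hj j' hj'} :
    ent (rs t (M j hj)) (cs t (M j' hj')) ↔
      ((j' + 1 = j ∨ j' = j) ∧ val h j' t.1 (cs t (M j' hj')).2) := Iff.rfl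

lemma nxr {a j hj e} {g' : Grp h} : ¬ (isXR (W a j hj e : Grp h) = true ∧ isXC g' = true) := by
  simp [isXR, W]

lemma nxc {a j hj e} {g' : Grp h} : ¬ (isXR g' = true ∧ isXC (W a j hj e : Grp h) = true) := by
  simp [isXC, W]

variable {B : X h → X h → Prop}

lemma hor (hh : 1 ≤ h) (ht : ∀ g g', ¬ (isXR g = true ∧ isXC g' = true) →
      (B (rs t g) (cs t g') ↔ ent (rs t g) (cs t g'))) (j : ℕ) (hj : j + 1 < 2 * h + 2)
    (h0 : ¬ B (rs t (M (j + 1) hj)) (cs t (M j (by omega))))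
    (h1 : B (rs t (M (j + 1) hj)) (cs t (M (j + 1) hj))) : HasCopy B := by
  have hb : be h (j + 1) t.1 < 2 := by unfold be; split_ifs <;> exact cb_lt _ _ _
  obtain ⟨e, he⟩ : ∃ e : Fin 3, (e : ℕ) = be h (j + 1) t.1 := ⟨⟨be h (j + 1) t.1, by omega⟩, rfl⟩
  have c1 : colIn1 h (j + 1) e j (cs t (M j (by omega))).2 := by
    unfold colIn1
    rw [if_neg (by omega)]
    refine ⟨rfl, fun hj' => ?_⟩
    rw [cs_mid (by omega) (by omega), he, be, if_neg (by omega), Nat.add_sub_cancel]
  have c2 : colIn2 h (j + 1) e (j + 1) (cs t (M (j + 1) hj)).2 := by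
    refine ⟨by omega, rfl, fun hj' => ?_⟩
    rw [cs_mid (by omega) (by omega), he, be, if_pos hj']
  have c3 : ¬ colIn1 h (j + 1) e (j + 1) (cs t (M (j + 1) hj)).2 := by
    unfold colIn1
    rw [if_neg (by omega)]
    omega
  have c4 : ¬ colIn2 h (j + 1) e j (cs t (M j (by omega))).2 := by
    unfold colIn2
    omega
  have he2 : (e : ℕ) ≠ 2 := by omega
  refine copy ht
    ![W 0 (j + 1) hj e, W 1 (j + 1) hj e, W 2 (j + 1) hj e, M (j + 1) hj]
    ![W 0 (j + 1) hj e, W 1 (j + 1) hj e, M j (by omega), M (j + 1) hj] ?_ ?_ ?_ ?_ ?_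
  · intro a; fin_cases a <;> simp [sec, M, W]
  · intro a; fin_cases a <;> simp [sec, M, W]
  · simp [rs, M, W, keyR, mk_lt]
  · have a1 := t.1.2
    have a2 := t.2.2.2
    show mk 34 0 (pos h j (cs t (M j (by omega))).2) j (cs t (M j (by omega))).2 <
      mk 34 0 (pos h (j + 1) (cs t (M (j + 1) hj)).2) (j + 1) (cs t (M (j + 1) hj)).2
    have : pos h j (cs t (M j (by omega))).2 ≤ pos h (j + 1) (cs t (M (j + 1) hj)).2 := by
      unfold pos
      by_cases k1 : j = 0
      · rw [if_pos k1]; omega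
      · rw [if_neg k1, if_neg (by omega), if_neg (by omega), cs_mid (by omega) (by omega)]
        split_ifs with k2
        · omega
        · rw [cs_mid (by omega) (by omega)]
    rw [mk_lt]; omega
  · intro a b
    fin_cases a <;> fin_cases b <;> simp only [Matrix.cons_val, Fin.zero_eta, Fin.mk_one,
        Fin.reduceFinMk]
    all_goals first
        | (rw [ht _ _ nxr, ent_ww]; simp [ww, core, he2]; done)
        | (rw [ht _ _ nxr, ent_wm]; simp [wm, core, c1, c2, c3, c4]; done)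
        | (rw [ht _ _ nxc, ent_mw]; simp [mw, core, rowIn1, rowIn2, he2, he]; done)
        | (simp [core, h0, h1]; done)

lemma ver (ht : ∀ g g', ¬ (isXR g = true ∧ isXC g' = true) →
      (B (rs t g) (cs t g') ↔ ent (rs t g) (cs t g'))) (j : ℕ) (hj : j + 1 < 2 * h + 2)
    (h0 : ¬ B (rs t (M j (by omega))) (cs t (M j (by omega))))
    (h1 : B (rs t (M (j + 1) hj)) (cs t (M j (by omega)))) : HasCopy B := by
  refine copy ht
    ![W 0 j (by omega) 2, W 1 j (by omega) 2, M (j + 1) hj, M j (by omega)]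
    ![W 0 j (by omega) 2, W 1 j (by omega) 2, M j (by omega), W 2 j (by omega) 2] ?_ ?_ ?_ ?_ ?_
  · intro a; fin_cases a <;> simp [sec, M, W]
  · intro a; fin_cases a <;> simp [sec, M, W]
  · simp [rs, M, keyR, mk_lt, isXR]; omega
  · simp [cs, M, W, keyC, mk_lt]
  · intro a b
    fin_cases a <;> fin_cases b <;> simp only [Matrix.cons_val, Fin.zero_eta, Fin.mk_one,
        Fin.reduceFinMk]
    all_goals first
        | (rw [ht _ _ nxr, ent_ww]; simp [ww, core]; done)
        | (rw [ht _ _ nxr, ent_wm]; simp [wm, core, colIn1, colIn2]; done)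
        | (rw [ht _ _ nxc, ent_mw]; simp [mw, core, rowIn1, rowIn2]; done)
        | (simp [core, h0, h1]; done)

lemma far (hh : 1 ≤ h) (ht : ∀ g g', ¬ (isXR g = true ∧ isXC g' = true) →
      (B (rs t g) (cs t g') ↔ ent (rs t g) (cs t g'))) : HasCopy B := by
  by_contra hno
  have ind : ∀ j (hj : j + 1 < 2 * h + 2), ¬ B (rs t (M (j + 1) hj)) (cs t (M (j + 1) hj)) := by
    intro j
    induction j with
    | zero =>
      intro hj h1
      refine hno (hor hh ht _ _ ?_ h1)
      rw [ht _ _ (by simp [isXC, M]), ent_mm]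
      have := Nat.div_eq_of_lt t.1.2
      simp [val, dd, this]
    | succ j ih =>
      intro hj h1
      exact hno (hor hh ht _ _ (fun h2 => hno (ver ht _ _ (ih (by omega)) h2)) h1)
  apply ind (2 * h) (by omega)
  rw [ht _ _ (by simp [isXC, M]), ent_mm, cs_end (by omega)]
  have := Nat.div_eq_of_lt t.2.2.2
  have e1 : ¬ (2 * h + 1 ≤ h) := by omega
  have e2 : 2 * h + 1 - h - 1 = h := by omega
  simp [val, dd, e1, e2, this]

end

end Vale.Agent.P037
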