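import Vale.Agent.P037.Core

namespace Vale.Agent.P037

lemma H_rows : ∀ i i' : Fin 36, (∀ j : Fin 36, (j : ℕ) < 6 → H i j = H i' j) →
    min (i : ℕ) 34 = min (i' : ℕ) 34 := by decide +kernel

lemma H_cols : ∀ i i' : Fin 36, (∀ j : Fin 36, (j : ℕ) < 6 → H j i = H j i') →
    min (i : ℕ) 34 = min (i' : ℕ) 34 := by decide +kernel

lemma H_F1 : ∀ j : Fin 36, 6 ≤ (j : ℕ) → (j : ℕ) ≤ 30 → H 31 j = true := by decide +kernel

lemma H_F2 : ∀ i j : Fin 36, 6 ≤ (j : ℕ) → (j : ℕ) ≤ 30 → 6 ≤ (i : ℕ) → (i : ℕ) ≤ 30 →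
    (H i j = true ↔ i = j) := by decide +kernel

lemma mono_id (a : Fin 36 → ℕ) (hm : Monotone a) (hle : ∀ i, a i ≤ 34)
    (hinj : ∀ i i', a i = a i' → min (i : ℕ) 34 = min (i' : ℕ) 34) (i : Fin 36) :
    a i = min (i : ℕ) 34 := by
  have step : ∀ k : ℕ, (hk : k < 34) → a ⟨k, by omega⟩ < a ⟨k + 1, by omega⟩ := by
    intro k hk
    have h1 : a ⟨k, by omega⟩ ≤ a ⟨k + 1, by omega⟩ := hm (by simp [Fin.le_def])
    rcases h1.lt_or_eq with h | h
    · exact h
    · have := hinj _ _ h
      simp at this; omega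
  have lo : ∀ k : ℕ, (hk : k ≤ 34) → k ≤ a ⟨k, by omega⟩ := by
    intro k
    induction k with
    | zero => intro _; omega
    | succ k ih => intro hk; have := ih (by omega); have := step k (by omega); omega
  have hi : ∀ k : ℕ, (hk : k ≤ 34) → a ⟨34 - k, by omega⟩ ≤ 34 - k := by
    intro k
    induction k with
    | zero => intro _; exact hle _
    | succ k ih =>
      intro hk
      have h1 := ih (by omega)
      have h2 := step (34 - (k + 1)) (by omega)
      have h3 : (⟨34 - (k + 1) + 1, by omega⟩ : Fin 36) = ⟨34 - k, by omega⟩ := by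
        ext; simp; omega
      rw [h3] at h2; omega
  rcases i with ⟨i, hi'⟩
  by_cases h : i ≤ 34
  · have h1 := lo i h
    have h2 := hi (34 - i) (by omega)
    have h3 : (⟨34 - (34 - i), by omega⟩ : Fin 36) = ⟨i, hi'⟩ := by ext; simp; omega
    rw [h3] at h2
    simp; omega
  · have h1 := lo 34 le_rfl
    have h2 : a ⟨34, by omega⟩ ≤ a ⟨i, hi'⟩ := hm (by simp [Fin.le_def]; omega)
    have := hle ⟨i, hi'⟩
    simp; omega

section
variable {h : ℕ} {f g : Fin 36 → X h}

lemma secs (hf : ∀ i j, i < j → keyR (f i) < keyR (f j))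
    (hg : ∀ i j, i < j → keyC (g i) < keyC (g j))
    (hA : ∀ i j, ent (f i) (g j) ↔ H i j = true) :
    (∀ i, sec (f i).1 = min (i : ℕ) 34) ∧ (∀ i, sec (g i).1 = min (i : ℕ) 34) := by
  have mf : Monotone fun i => sec (f i).1 := fun i j hij => by
    rcases hij.lt_or_eq with h | h
    · exact secR_mono (hf _ _ h)
    · rw [h]
  have mg : Monotone fun i => sec (g i).1 := fun i j hij => by
    rcases hij.lt_or_eq with h | h
    · exact secC_mono (hg _ _ h)
    · rw [h]
  have A1 : sec (g 5).1 < 32 → ∀ i, sec (f i).1 = min (i : ℕ) 34 := by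
    intro h5
    apply mono_id _ mf (fun i => sec_le _)
    intro i i' hii
    apply H_rows
    intro j hj
    have hj' : sec (g j).1 < 32 := lt_of_le_of_lt (mg (by simp [Fin.le_def]; omega)) h5
    have e1 := ent_anc (r := f i) (c := g j) (Or.inr hj')
    have e2 := ent_anc (r := f i') (c := g j) (Or.inr hj')
    rw [hA] at e1 e2
    rw [← hii] at e2
    exact Bool.eq_iff_iff.2 (e1.trans e2.symm)
  have A2 : sec (f 5).1 < 32 → ∀ i, sec (g i).1 = min (i : ℕ) 34 := by
    intro h5
    apply mono_id _ mg (fun i => sec_le _)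
    intro i i' hii
    apply H_cols
    intro j hj
    have hj' : sec (f j).1 < 32 := lt_of_le_of_lt (mf (by simp [Fin.le_def]; omega)) h5
    have e1 := ent_anc (r := f j) (c := g i) (Or.inl hj')
    have e2 := ent_anc (r := f j) (c := g i') (Or.inl hj')
    rw [hA] at e1 e2
    rw [← hii] at e2
    exact Bool.eq_iff_iff.2 (e1.trans e2.symm)
  have B : sec (g 5).1 < 32 ∨ sec (f 5).1 < 32 := by
    by_contra hcon
    push Not at hcon
    have hG : ∀ j : Fin 36, 5 ≤ (j : ℕ) → 32 ≤ sec (g j).1 := fun j hj =>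
      hcon.1.trans (mg (by simp [Fin.le_def]; omega))
    have hF : ∀ j : Fin 36, 5 ≤ (j : ℕ) → 32 ≤ sec (f j).1 := fun j hj =>
      hcon.2.trans (mf (by simp [Fin.le_def]; omega))
    have key : ∀ j j' : Fin 36, 6 ≤ (j : ℕ) → (j' : ℕ) ≤ 30 → j < j' →
        slot (g j) ≠ slot (g j') := by
      intro j j' h1 h2 h3 hs
      have h3' : (j : ℕ) < j' := h3
      have := lemP (r := f 31) (r2 := f j') (hG j (by omega)) (hG j' (by omega))
        (hF 31 (by simp)) (hF j' (by omega)) (hg _ _ h3) hs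
        ((hA _ _).2 (H_F1 _ h1 (by omega))) ((hA _ _).2 (H_F1 _ (by omega) h2))
        ((hA _ _).2 ((H_F2 _ _ (by omega) h2 (by omega) h2).2 rfl))
      rw [hA, H_F2 _ _ h1 (by omega) (by omega) h2] at this
      exact h3.ne' this
    obtain ⟨x, y, hxy, he⟩ := Fintype.exists_ne_map_eq_of_card_lt
      (fun k : Fin 25 => (⟨slot (g ⟨k + 6, by omega⟩), slot_lt _⟩ : Fin 22)) (by simp)
    have he' : slot (g ⟨x + 6, by omega⟩) = slot (g ⟨y + 6, by omega⟩) := congrArg Fin.val he
    rcases lt_or_gt_of_ne hxy with hl | hl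
    · exact key _ _ (by simp) (by simp; omega) (Fin.mk_lt_mk.2 (Nat.add_lt_add_right hl 6)) he'
    · exact key _ _ (by simp) (by simp; omega) (Fin.mk_lt_mk.2 (Nat.add_lt_add_right hl 6)) he'.symm
  rcases B with B | B
  · have := A1 B
    exact ⟨this, A2 (by rw [this]; simp)⟩
  · have := A2 B
    exact ⟨A1 (by rw [this]; simp), this⟩

lemma sec32 {h : ℕ} {g : Grp h} (hg : sec g = 32) : ∃ j e, g = .inr (.inl (0, j, e)) := by
  rcases g with a | ⟨a, j, e⟩ | j <;> simp only [sec] at hg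
  · omega
  · exact ⟨j, e, by rw [show a = 0 by ext; simp; omega]⟩
  · omega

lemma sec33 {h : ℕ} {g : Grp h} (hg : sec g = 33) : ∃ j e, g = .inr (.inl (1, j, e)) := by
  rcases g with a | ⟨a, j, e⟩ | j <;> simp only [sec] at hg
  · omega
  · exact ⟨j, e, by rw [show a = 1 by ext; simp; omega]⟩
  · omega

lemma sec34 {h : ℕ} {g : Grp h} (hg : sec g = 34) :
    (∃ j e, g = .inr (.inl (2, j, e))) ∨ ∃ j, g = .inr (.inr j) := by
  rcases g with a | ⟨a, j, e⟩ | j <;> simp only [sec] at hg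
  · omega
  · exact Or.inl ⟨j, e, by rw [show a = 2 by ext; simp; omega]⟩
  · exact Or.inr ⟨j, rfl⟩

lemma div_succ (x d : ℕ) : x / 2 ^ (d + 1) = x / 2 ^ d / 2 := by
  rw [pow_succ, Nat.div_div_eq_div_mul]

lemma horiz {h j x y y' : ℕ} (hh : 1 ≤ h) (hj : j + 1 ≤ 2 * h + 1) (hx : x < 2 ^ h)
    (hy : y < 2 ^ h) (hy' : y' < 2 ^ h)
    (hp : pos h j y ≤ pos h (j + 1) y')
    (h1 : h ≤ j → cb h j y = be h (j + 1) x)
    (h2 : j + 1 ≤ h → cb h (j + 1) y' = be h (j + 1) x)
    (v0 : ¬ val h j x y) (v1 : val h (j + 1) x y') : j = h ∧ y = x := by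
  have z : ∀ t, t < 2 ^ h → t / 2 ^ h = 0 := fun t ht => Nat.div_eq_of_lt ht
  rcases lt_trichotomy j h with hl | hl | hl
  · exfalso
    have d1 : dd h j = dd h (j + 1) + 1 := by unfold dd; split_ifs <;> omega
    have h2' := h2 hl
    unfold be at h2'
    rw [if_pos (by omega)] at h2'
    unfold val at v0 v1
    rw [if_pos (by omega)] at v0 v1
    unfold cb at h2'
    by_cases j0 : j = 0
    · have d0 : dd h j = h := by unfold dd; split_ifs <;> omega
      have e1 := div_succ x (dd h (j + 1))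
      have e2 := div_succ y' (dd h (j + 1))
      rw [← d1, d0, z _ (by assumption)] at e1 e2
      omega
    · have hyy : y ≤ y' := by unfold pos at hp; split_ifs at hp <;> omega
      have := Nat.div_le_div_right (c := 2 ^ dd h (j + 1)) hyy
      rw [d1, div_succ, div_succ] at v0
      omega
  · subst hl
    have hyy : y ≤ y' := by unfold pos at hp; split_ifs at hp <;> omega
    unfold val at v0 v1
    rw [if_pos le_rfl] at v0
    rw [if_neg (by omega)] at v1
    have d0 : dd j j = 0 := by unfold dd; split_ifs <;> omega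
    have d1 : dd j (j + 1) = 0 := by unfold dd; split_ifs <;> omega
    rw [d0] at v0
    rw [d1] at v1
    simp at v0 v1
    omega
  · exfalso
    have d1 : dd h (j + 1) = dd h j + 1 := by unfold dd; split_ifs <;> omega
    have h1' := h1 hl.le
    unfold be at h1'
    rw [if_neg (by omega), Nat.add_sub_cancel] at h1'
    unfold val at v0 v1
    rw [if_neg (by omega)] at v0 v1
    unfold cb at h1'
    by_cases jm : j + 1 = 2 * h + 1
    · have d0 : dd h (j + 1) = h := by unfold dd; split_ifs <;> omega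
      have e1 := div_succ x (dd h j)
      have e2 := div_succ y (dd h j)
      rw [← d1, d0, z _ (by assumption)] at e1 e2
      omega
    · have hyy : y ≤ y' := by unfold pos at hp; split_ifs at hp <;> omega
      have := Nat.div_le_div_right (c := 2 ^ dd h j) hyy
      rw [d1, div_succ, div_succ] at v1
      omega

lemma rare (hh : 1 ≤ h) (hf : ∀ i j, i < j → keyR (f i) < keyR (f j))
    (hg : ∀ i j, i < j → keyC (g i) < keyC (g j))
    (hA : ∀ i j, ent (f i) (g j) ↔ H i j = true) :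
    g 34 = (.inr (.inr ⟨h, by omega⟩), (f 35).2) := by
  obtain ⟨sf, sg⟩ := secs hf hg hA
  obtain ⟨j1, e1, z1⟩ := sec32 (g := (f 32).1) (by rw [sf]; rfl)
  obtain ⟨j2, e2, z2⟩ := sec33 (g := (f 33).1) (by rw [sf]; rfl)
  obtain ⟨j3, e3, w1⟩ := sec32 (g := (g 32).1) (by rw [sg]; rfl)
  obtain ⟨j4, e4, w2⟩ := sec33 (g := (g 33).1) (by rw [sg]; rfl)
  have r1 := sec34 (g := (f 34).1) (by rw [sf]; rfl)
  have r2 := sec34 (g := (f 35).1) (by rw [sf]; rfl)
  have u1 := sec34 (g := (g 34).1) (by rw [sg]; rfl)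
  have u2 := sec34 (g := (g 35).1) (by rw [sg]; rfl)
  have a11 := (hA 32 32).2 (by decide)
  have a12 := (hA 32 33).2 (by decide)
  have a21 := (hA 33 32).2 (by decide)
  have a13 := (hA 32 34).2 (by decide)
  have a24 := (hA 33 35).2 (by decide)
  have a32 := (hA 34 33).2 (by decide)
  have a41 := (hA 35 32).2 (by decide)
  have a33 := (hA 34 34).2 (by decide)
  have a44 := (hA 35 35).2 (by decide)
  have a43 : ¬ ent (f 35) (g 34) := by rw [hA]; decide
  have kr := hf 34 35 (by decide)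
  have kc := hg 34 35 (by decide)
  rcases hz1 : f 32 with ⟨z1g, z1i⟩
  rcases hz2 : f 33 with ⟨z2g, z2i⟩
  rcases hw1 : g 32 with ⟨w1g, w1i⟩
  rcases hw2 : g 33 with ⟨w2g, w2i⟩
  rcases hr1 : f 34 with ⟨r1g, x'⟩
  rcases hr2 : f 35 with ⟨r2g, x⟩
  rcases hu1 : g 34 with ⟨u1g, y⟩
  rcases hu2 : g 35 with ⟨u2g, y'⟩
  simp only [hz1, hz2, hw1, hw2, hr1, hr2, hu1, hu2] at *
  subst z1 z2 w1 w2
  simp only [ent, ww] at a11 a12 a21
  have : j3 = j1 := by ext; omega
  have : j4 = j1 := by ext; omega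
  have : j2 = j1 := by ext; omega
  have : e3 = e1 := by ext; omega
  have : e4 = e1 := by ext; omega
  have : e2 = e1 := by ext; omega
  subst j2 j3 j4 e2 e3 e4
  rcases r2 with ⟨k, e, rfl⟩ | ⟨k, rfl⟩
  · simp [ent, ww] at a41
  rcases u1 with ⟨l, e, rfl⟩ | ⟨l, rfl⟩
  · simp [ent, ww] at a13
  simp only [ent, mw, wm, rowIn1, colIn1, Fin.val_zero, ne_eq, not_true_eq_false, false_and,
    or_false, zero_ne_one, not_false_eq_true, true_and] at a41 a13 a43
  by_cases he : (e1 : ℕ) = 2
  · exfalso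
    rw [if_pos he] at a13
    rcases r1 with ⟨k', e, rfl⟩ | ⟨k', rfl⟩
    · simp only [ent, ww] at a32; simp at a32; omega
    · simp only [ent] at a33
      simp only [keyR, mk_lt] at kr
      exact a43 ⟨by omega, val_mono_row (by omega) a33.2⟩
  · rw [if_neg he] at a13
    rcases u2 with ⟨l', e, rfl⟩ | ⟨l', rfl⟩
    · simp only [ent, ww] at a24; simp at a24; omega
    · simp only [ent, wm, colIn2, Fin.val_one, ne_eq, not_true_eq_false, false_and, false_or] at a24
      simp only [ent] at a44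
      simp only [keyC, mk_lt] at kc
      have hl' : (l' : ℕ) = l + 1 := by omega
      have hbe : be h (l + 1) x = e1 := by
        have := a41.2.resolve_left he
        rwa [← a13.1] at this
      have := horiz (h := h) (j := l) (x := x) (y := y) (y' := y') hh (by omega) x.2 y.2 y'.2
        (by rw [← hl']; omega) (fun hl => by rw [hbe]; exact a13.2 hl)
        (fun hl => by rw [hbe, ← hl']; exact a24.2.2.2 (by omega))
        (fun hv => a43 ⟨by omega, hv⟩) (by rw [← hl']; exact a44.2)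
      simp only [Prod.mk.injEq, Sum.inr.injEq, Fin.ext_iff]
      exact this

end

end Vale.Agent.P037
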